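import Vale.Agent.P061.Defs
import Vale.Agent.P061.Final

namespace Vale.Agent.Results.P061.ThinTree

open Vale.Agent.P061

theorem result : ∃ C : ℝ, 0 < C ∧ ∀ k : ℕ, 1 ≤ k →
    ∀ (V E : Type) [Fintype V] [DecidableEq V] [Fintype E] (ends : E → Sym2 V),
      (∀ e, ¬ (ends e).IsDiag) → 2 ≤ Fintype.card V →
      (∀ S : Finset V, S.Nonempty → S ≠ Finset.univ → k ≤ (cutEdges ends Finset.univ S).card) →
      ∃ T : Finset E, IsSpanningTree ends T ∧ ∀ S : Finset V, S.Nonempty → S ≠ Finset.univ →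
        ((cutEdges ends T S).card : ℝ) ≤ C / k * (cutEdges ends Finset.univ S).card := by
  obtain ⟨C, hC, h⟩ := thin_tree
  refine ⟨C, hC, fun k hk V E _ _ _ ends _ hV hc => ?_⟩
  obtain ⟨T, h1, h2⟩ := h k hk V E ends hV hc
  exact ⟨T, h1, fun S _ _ => h2 S⟩

end Vale.Agent.Results.P061.ThinTree
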